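import Mathlib

/-!
# Roots of unity on a circle: regularised logarithmic sums
-/

namespace Vale.Agent.P030.H54

open Finset Filter Topology MeasureTheory Real Polynomial

/-- the `N`-th roots of unity -/
noncomputable abbrev mu (N : ℕ) : Finset ℂ := nthRootsFinset N (1 : ℂ)

lemma mu_card {N : ℕ} (hN : 0 < N) : (mu N).card = N := by
  exact (Complex.isPrimitiveRoot_exp N hN.ne').card_nthRootsFinset

lemma mu_norm {N : ℕ} (hN : 0 < N) {ζ : ℂ} (h : ζ ∈ mu N) : ‖ζ‖ = 1 := by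
  have h1 : ζ ^ N = 1 := (mem_nthRootsFinset hN _).1 h
  exact Complex.norm_eq_one_of_pow_eq_one h1 hN.ne'

lemma prod_mu {N : ℕ} (hN : 0 < N) (x y : ℂ) :
    ∏ ζ ∈ mu N, (x - ζ * y) = x ^ N - y ^ N :=
  ((Complex.isPrimitiveRoot_exp N hN.ne').pow_sub_pow_eq_prod_sub_mul x y hN).symm

/-- the larger radius -/
noncomputable def al (t ρ ε : ℝ) : ℝ := (√((t + ρ) ^ 2 + ε) + √((t - ρ) ^ 2 + ε)) / 2
/-- the smaller radius -/
noncomputable def be (t ρ ε : ℝ) : ℝ := (√((t + ρ) ^ 2 + ε) - √((t - ρ) ^ 2 + ε)) / 2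

lemma al_mul_be {t ρ ε : ℝ} (hε : 0 < ε) : al t ρ ε * be t ρ ε = t * ρ := by
  unfold al be
  have h1 : √((t + ρ) ^ 2 + ε) ^ 2 = (t + ρ) ^ 2 + ε := Real.sq_sqrt (by positivity)
  have h2 : √((t - ρ) ^ 2 + ε) ^ 2 = (t - ρ) ^ 2 + ε := Real.sq_sqrt (by positivity)
  nlinarith [h1, h2]

lemma al_sq_add_be_sq {t ρ ε : ℝ} (hε : 0 < ε) :
    al t ρ ε ^ 2 + be t ρ ε ^ 2 = t ^ 2 + ρ ^ 2 + ε := by
  unfold al be
  have h1 : √((t + ρ) ^ 2 + ε) ^ 2 = (t + ρ) ^ 2 + ε := Real.sq_sqrt (by positivity)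
  have h2 : √((t - ρ) ^ 2 + ε) ^ 2 = (t - ρ) ^ 2 + ε := Real.sq_sqrt (by positivity)
  nlinarith [h1, h2]

lemma al_ge {t ρ ε : ℝ} (hε : 0 < ε) : max ρ t ≤ al t ρ ε := by
  unfold al
  have h1 : t + ρ ≤ √((t + ρ) ^ 2 + ε) := by
    refine Real.le_sqrt_of_sq_le ?_
    linarith
  have h2 : |t - ρ| ≤ √((t - ρ) ^ 2 + ε) := by
    refine Real.le_sqrt_of_sq_le ?_
    rw [sq_abs]; linarith
  have h3 := le_abs_self (t - ρ)
  have h4 := neg_abs_le (t - ρ)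
  refine max_le ?_ ?_ <;> linarith

lemma al_le {t ρ ε : ℝ} (ht : 0 ≤ t) (hρ : 0 ≤ ρ) (hε : 0 < ε) :
    al t ρ ε ≤ max ρ t + √ε := by
  unfold al
  have h0 : √ε ^ 2 = ε := Real.sq_sqrt hε.le
  have h0' : 0 ≤ √ε := Real.sqrt_nonneg _
  have h1 : √((t + ρ) ^ 2 + ε) ≤ (t + ρ) + √ε := by
    refine Real.sqrt_le_iff.2 ⟨by positivity, ?_⟩
    nlinarith
  have h2 : √((t - ρ) ^ 2 + ε) ≤ |t - ρ| + √ε := by
    refine Real.sqrt_le_iff.2 ⟨by positivity, ?_⟩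
    have := sq_abs (t - ρ)
    nlinarith [abs_nonneg (t - ρ)]
  have h3 : (t + ρ) + |t - ρ| = 2 * max ρ t := by
    rcases le_total ρ t with h | h
    · rw [max_eq_right h, abs_of_nonneg (by linarith)]; ring
    · rw [max_eq_left h, abs_of_nonpos (by linarith)]; ring
  linarith

lemma be_nonneg {t ρ ε : ℝ} (ht : 0 ≤ t) (hρ : 0 ≤ ρ) : 0 ≤ be t ρ ε := by
  unfold be
  have : √((t - ρ) ^ 2 + ε) ≤ √((t + ρ) ^ 2 + ε) := by
    refine Real.sqrt_le_sqrt ?_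
    nlinarith [mul_nonneg ht hρ]
  linarith

lemma al_pos {t ρ ε : ℝ} (hε : 0 < ε) : 0 < al t ρ ε := by
  unfold al
  have h1 : 0 < √((t + ρ) ^ 2 + ε) := Real.sqrt_pos.2 (by positivity)
  have h2 : 0 < √((t - ρ) ^ 2 + ε) := Real.sqrt_pos.2 (by positivity)
  linarith

lemma be_le {t ρ ε R : ℝ} (ht : 0 ≤ t) (hρ : 0 ≤ ρ) (hε : 0 < ε) (hR : 0 < R)
    (h : (t + ρ) ^ 2 + ε ≤ R ^ 2) : be t ρ ε ≤ al t ρ ε * (1 - √ε / R) := by
  have h1 : al t ρ ε ≤ R := by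
    have : √((t + ρ) ^ 2 + ε) ≤ R := by
      rw [show R = √(R ^ 2) from (Real.sqrt_sq hR.le).symm]
      exact Real.sqrt_le_sqrt h
    have h2 := be_nonneg (t := t) (ρ := ρ) (ε := ε) ht hρ
    unfold al be at *
    linarith
  have h3 : al t ρ ε - be t ρ ε = √((t - ρ) ^ 2 + ε) := by unfold al be; ring
  have h4 : √ε ≤ √((t - ρ) ^ 2 + ε) := Real.sqrt_le_sqrt (by nlinarith [sq_nonneg (t - ρ)])
  have h5 : al t ρ ε * (√ε / R) ≤ √ε := by
    rw [mul_div_assoc', div_le_iff₀ hR, mul_comm]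
    exact mul_le_mul_of_nonneg_left h1 (Real.sqrt_nonneg _)
  nlinarith

lemma be_le_al {t ρ ε : ℝ} : be t ρ ε ≤ al t ρ ε := by
  unfold al be
  have := Real.sqrt_nonneg ((t - ρ) ^ 2 + ε)
  linarith

/-- the norm identity -/
lemma exists_rot (s c v : ℂ) (hv : ‖v‖ = 1) (ρ : ℝ) {ε : ℝ} (hε : 0 < ε) :
    ∃ w : ℂ, ‖w‖ = 1 ∧ ∀ ζ : ℂ, ‖ζ‖ = 1 →
      ‖s - (c + ρ * v * ζ)‖ ^ 2 + ε =
        ‖((al ‖s - c‖ ρ ε : ℝ) : ℂ) - ζ * (((be ‖s - c‖ ρ ε : ℝ) : ℂ) * w)‖ ^ 2 := by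
  obtain ⟨u, hu, hsu⟩ : ∃ u : ℂ, ‖u‖ = 1 ∧ s - c = (‖s - c‖ : ℂ) * u := by
    by_cases h : s - c = 0
    · exact ⟨1, by simp, by simp [h]⟩
    · refine ⟨(s - c) / (‖s - c‖ : ℂ), ?_, ?_⟩
      · rw [norm_div, Complex.norm_real, Real.norm_eq_abs, abs_norm, div_self]
        exact norm_ne_zero_iff.2 h
      · rw [mul_div_cancel₀]
        exact_mod_cast norm_ne_zero_iff.2 h
  set t := ‖s - c‖ with ht
  refine ⟨v * (starRingEnd ℂ) u, by simp [hv, hu], fun ζ hζ => ?_⟩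
  have huu : u * (starRingEnd ℂ) u = 1 := by
    rw [Complex.mul_conj, Complex.normSq_eq_norm_sq, hu]; norm_num
  set z : ℂ := ζ * (v * (starRingEnd ℂ) u) with hz
  have hzn : ‖z‖ = 1 := by simp [hz, hζ, hv, hu]
  have h1 : s - (c + ρ * v * ζ) = u * ((t : ℂ) - ρ * z) := by
    have : s - (c + ρ * v * ζ) = (s - c) - ρ * v * ζ := by ring
    rw [this, hsu, hz]
    linear_combination (ρ * v * ζ) * huu
  have h2 : ζ * (((be t ρ ε : ℝ) : ℂ) * (v * (starRingEnd ℂ) u)) =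
      ((be t ρ ε : ℝ) : ℂ) * z := by rw [hz]; ring
  rw [h1, h2, norm_mul, hu, one_mul]
  have hzz : z.re ^ 2 + z.im ^ 2 = 1 := by
    have := Complex.sq_norm z
    rw [hzn, Complex.normSq_apply] at this
    nlinarith
  rw [← Complex.normSq_eq_norm_sq, ← Complex.normSq_eq_norm_sq, Complex.normSq_apply,
    Complex.normSq_apply]
  simp only [Complex.sub_re, Complex.sub_im, Complex.mul_re, Complex.mul_im, Complex.ofReal_re,
    Complex.ofReal_im, zero_mul, sub_zero, add_zero, zero_sub]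
  have e1 := al_mul_be (t := t) (ρ := ρ) hε
  have e2 := al_sq_add_be_sq (t := t) (ρ := ρ) hε
  linear_combination -e2 + 2 * z.re * e1 + (ρ ^ 2 - be t ρ ε ^ 2) * hzz

lemma prod_eq (s c v : ℂ) (hv : ‖v‖ = 1) (ρ : ℝ) {ε : ℝ} (hε : 0 < ε) {N : ℕ} (hN : 0 < N) :
    ∃ w : ℂ, ‖w‖ = 1 ∧
    ∏ ζ ∈ mu N, (‖s - (c + ρ * v * ζ)‖ ^ 2 + ε) =
      ‖((al ‖s - c‖ ρ ε : ℝ) : ℂ) ^ N - (((be ‖s - c‖ ρ ε : ℝ) : ℂ) * w) ^ N‖ ^ 2 := by
  obtain ⟨w, hw, h⟩ := exists_rot s c v hv ρ hε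
  refine ⟨w, hw, ?_⟩
  rw [← prod_mu hN, norm_prod, ← Finset.prod_pow]
  refine Finset.prod_congr rfl fun ζ hζ => ?_
  rw [h ζ (mu_norm hN hζ)]

lemma sum_log_eq (s c v : ℂ) (ρ : ℝ) {ε : ℝ} (hε : 0 < ε) (N : ℕ) :
    ∑ ζ ∈ mu N, Real.log (‖s - (c + ρ * v * ζ)‖ ^ 2 + ε) =
      Real.log (∏ ζ ∈ mu N, (‖s - (c + ρ * v * ζ)‖ ^ 2 + ε)) := by
  rw [Real.log_prod]
  intro ζ _
  positivity

lemma sum_log_le (s c v : ℂ) (hv : ‖v‖ = 1) {ρ : ℝ} (hρ : 0 < ρ) {ε : ℝ} (hε : 0 < ε)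
    {N : ℕ} (hN : 0 < N) :
    ∑ ζ ∈ mu N, Real.log (‖s - (c + ρ * v * ζ)‖ ^ 2 + ε) ≤
      2 * N * (Real.log (max ρ ‖s - c‖) + √ε / ρ) + 2 * Real.log 2 := by
  obtain ⟨w, hw, h⟩ := prod_eq s c v hv ρ hε hN
  have hpos : 0 < ∏ ζ ∈ mu N, (‖s - (c + ρ * v * ζ)‖ ^ 2 + ε) :=
    Finset.prod_pos fun ζ _ => by positivity
  rw [sum_log_eq s c v ρ hε N]
  set t := ‖s - c‖ with ht
  have ht0 : 0 ≤ t := norm_nonneg _
  have ha := al_pos (t := t) (ρ := ρ) hε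
  have hb := be_nonneg (t := t) (ρ := ρ) (ε := ε) ht0 hρ.le
  have hmax : 0 < max ρ t := lt_max_of_lt_left hρ
  have h1 : ‖((al t ρ ε : ℝ) : ℂ) ^ N - (((be t ρ ε : ℝ) : ℂ) * w) ^ N‖ ≤ 2 * al t ρ ε ^ N := by
    refine (norm_sub_le _ _).trans ?_
    rw [norm_pow, norm_pow, norm_mul, hw, mul_one, Complex.norm_real, Complex.norm_real,
      Real.norm_of_nonneg ha.le, Real.norm_of_nonneg hb]
    have := pow_le_pow_left₀ hb (be_le_al (t := t) (ρ := ρ) (ε := ε)) N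
    linarith
  have h2 : ∏ ζ ∈ mu N, (‖s - (c + ρ * v * ζ)‖ ^ 2 + ε) ≤ (2 * al t ρ ε ^ N) ^ 2 := by
    rw [h]; exact pow_le_pow_left₀ (norm_nonneg _) h1 2
  have h3 := Real.log_le_log hpos h2
  rw [Real.log_pow, Real.log_mul (by norm_num) (by positivity), Real.log_pow] at h3
  have h4 : Real.log (al t ρ ε) ≤ Real.log (max ρ t) + √ε / ρ := by
    have h5 : al t ρ ε ≤ max ρ t * (1 + √ε / ρ) := by
      refine (al_le ht0 hρ.le hε).trans ?_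
      rw [mul_add, mul_one]
      have : √ε ≤ max ρ t * (√ε / ρ) := by
        rw [mul_div_assoc', le_div_iff₀ hρ, mul_comm]
        exact mul_le_mul_of_nonneg_right (le_max_left _ _) (Real.sqrt_nonneg _)
      linarith
    have h6 := Real.log_le_log ha h5
    rw [Real.log_mul hmax.ne' (by positivity)] at h6
    have h7 : Real.log (1 + √ε / ρ) ≤ √ε / ρ := by
      have := Real.log_le_sub_one_of_pos (x := 1 + √ε / ρ) (by positivity)
      linarith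
    linarith
  have hN' : (0 : ℝ) ≤ N := Nat.cast_nonneg _
  push_cast at h3
  nlinarith [mul_le_mul_of_nonneg_left h4 hN']

lemma le_sum_log (s c v : ℂ) (hv : ‖v‖ = 1) {ρ : ℝ} (hρ : 0 < ρ) {ε : ℝ} (hε : 0 < ε)
    {N : ℕ} (hN : 0 < N) {R : ℝ} (hR : 0 < R) (hsR : (‖s - c‖ + ρ) ^ 2 + ε ≤ R ^ 2)
    (hNR : (1 - √ε / R) ^ N ≤ 1 / 2) :
    2 * N * Real.log (max ρ ‖s - c‖) - 2 * Real.log 2 ≤
      ∑ ζ ∈ mu N, Real.log (‖s - (c + ρ * v * ζ)‖ ^ 2 + ε) := by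
  obtain ⟨w, hw, h⟩ := prod_eq s c v hv ρ hε hN
  rw [sum_log_eq s c v ρ hε N]
  set t := ‖s - c‖ with ht
  have ht0 : 0 ≤ t := norm_nonneg _
  have ha := al_pos (t := t) (ρ := ρ) hε
  have hb := be_nonneg (t := t) (ρ := ρ) (ε := ε) ht0 hρ.le
  have hmax : 0 < max ρ t := lt_max_of_lt_left hρ
  have hb2 := be_le ht0 hρ.le hε hR hsR
  have h1 : al t ρ ε ^ N / 2 ≤ ‖((al t ρ ε : ℝ) : ℂ) ^ N - (((be t ρ ε : ℝ) : ℂ) * w) ^ N‖ := by
    have h2 := norm_sub_norm_le (((al t ρ ε : ℝ) : ℂ) ^ N) ((((be t ρ ε : ℝ) : ℂ) * w) ^ N)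
    rw [norm_pow, norm_pow, norm_mul, hw, mul_one, Complex.norm_real, Complex.norm_real,
      Real.norm_of_nonneg ha.le, Real.norm_of_nonneg hb] at h2
    have h3 : be t ρ ε ^ N ≤ al t ρ ε ^ N * (1 / 2) := by
      refine (pow_le_pow_left₀ hb hb2 N).trans ?_
      rw [mul_pow]
      exact mul_le_mul_of_nonneg_left hNR (by positivity)
    linarith
  have h2 : (al t ρ ε ^ N / 2) ^ 2 ≤ ∏ ζ ∈ mu N, (‖s - (c + ρ * v * ζ)‖ ^ 2 + ε) := by
    rw [h]; exact pow_le_pow_left₀ (by positivity) h1 2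
  have h3 := Real.log_le_log (by positivity) h2
  rw [Real.log_pow, Real.log_div (by positivity) (by norm_num), Real.log_pow] at h3
  have h4 : Real.log (max ρ t) ≤ Real.log (al t ρ ε) := Real.log_le_log hmax (al_ge hε)
  have hN' : (0 : ℝ) ≤ N := Nat.cast_nonneg _
  push_cast at h3
  nlinarith [mul_le_mul_of_nonneg_left h4 hN']

/-- a good rotation of the `N`-th roots of unity on a circle -/
lemma exists_good_rotation {U : ℂ → ℝ} (hU : Continuous U) (c : ℂ) (ρ : ℝ) {N : ℕ} (hN : 0 < N) :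
    ∃ v : ℂ, ‖v‖ = 1 ∧ N * circleAverage U c ρ ≤ ∑ ζ ∈ mu N, U (c + ρ * v * ζ) := by
  set F : ℝ → ℝ := fun θ => ∑ ζ ∈ mu N, U (c + ρ * Complex.exp (θ * Complex.I) * ζ) with hF
  have hFc : Continuous F := by
    refine continuous_finsetSum _ fun ζ _ => hU.comp ?_
    fun_prop
  obtain ⟨θ₀, _, hθ₀⟩ := isCompact_Icc.exists_isMaxOn (s := Set.Icc (0 : ℝ) (2 * π))
    ⟨0, by constructor <;> positivity⟩ hFc.continuousOn
  refine ⟨Complex.exp (θ₀ * Complex.I), Complex.norm_exp_ofReal_mul_I _, ?_⟩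
  have h1 : (2 * π)⁻¹ * ∫ θ in (0 : ℝ)..2 * π, F θ = N * circleAverage U c ρ := by
    rw [hF, intervalIntegral.integral_finsetSum]
    · rw [Finset.mul_sum]
      have : ∀ ζ ∈ mu N, (2 * π)⁻¹ * ∫ θ in (0 : ℝ)..2 * π,
          U (c + ρ * Complex.exp (θ * Complex.I) * ζ) = circleAverage U c ρ := by
        intro ζ hζ
        rw [circleAverage_eq_integral_add (Complex.arg ζ), smul_eq_mul]
        congr 1
        refine intervalIntegral.integral_congr fun θ _ => ?_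
        beta_reduce
        congr 1
        rw [circleMap]
        have h2 : ζ = Complex.exp (Complex.arg ζ * Complex.I) := by
          conv_lhs => rw [← Complex.norm_mul_exp_arg_mul_I ζ, mu_norm hN hζ]
          simp
        push_cast
        rw [add_mul, Complex.exp_add, ← h2]
        ring
      rw [Finset.sum_congr rfl this, Finset.sum_const, mu_card hN, nsmul_eq_mul]
    · intro ζ _
      refine Continuous.intervalIntegrable (hU.comp ?_) _ _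
      fun_prop
  have h2 : (2 * π)⁻¹ * ∫ θ in (0 : ℝ)..2 * π, F θ ≤ F θ₀ := by
    have h3 : ∫ θ in (0 : ℝ)..2 * π, F θ ≤ ∫ _θ in (0 : ℝ)..2 * π, F θ₀ := by
      refine intervalIntegral.integral_mono_on (by positivity) (hFc.intervalIntegrable _ _)
        (continuous_const.intervalIntegrable _ _) fun θ hθ => hθ₀ hθ
    rw [intervalIntegral.integral_const, sub_zero, smul_eq_mul] at h3
    rw [inv_mul_le_iff₀ (by positivity)]
    exact h3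
  rw [← h1]
  exact h2

end Vale.Agent.P030.H54
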