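import Vale.Agent.P030.H54.ArchFrame

/-!
# The archimedean bound with circle measures

`W b x = D b * U b x + c b` with `U b` the potential of a convex combination of circle measures.
-/

namespace Vale.Agent.P030.H54

open Finset Filter Topology Real Matrix

namespace CircMeas

variable {κ : Type*} [Fintype κ] (m : CircMeas κ)

/-- the potential is at least `log (1+|x|) - C` -/
lemma exists_le_U : ∃ C : ℝ, ∀ x : ℂ, Real.log (1 + ‖x‖) - C ≤ m.U x := by
  refine ⟨∑ k, m.w k * Real.log ((1 + ‖m.c k‖) / m.ρ k + 1), fun x => ?_⟩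
  have h1 : Real.log (1 + ‖x‖) = ∑ k, m.w k * Real.log (1 + ‖x‖) := by
    rw [← Finset.sum_mul, m.w_sum, one_mul]
  unfold U
  rw [h1, ← Finset.sum_sub_distrib]
  refine Finset.sum_le_sum fun k _ => ?_
  rw [← mul_sub]
  refine mul_le_mul_of_nonneg_left ?_ (m.w_nonneg k)
  have hρ := m.ρ_pos k
  have hx := norm_nonneg x
  have hc := norm_nonneg (m.c k)
  have hmax := m.max_pos k x
  rw [sub_le_iff_le_add, ← Real.log_mul hmax.ne' (by positivity)]
  refine Real.log_le_log (by linarith) ?_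
  have h2 : ‖x‖ ≤ ‖x - m.c k‖ + ‖m.c k‖ := by
    have := norm_add_le (x - m.c k) (m.c k)
    simpa using this
  have h3 : 1 + ‖m.c k‖ ≤ max (m.ρ k) ‖x - m.c k‖ * ((1 + ‖m.c k‖) / m.ρ k) := by
    rw [mul_div_assoc', le_div_iff₀ hρ, mul_comm]
    exact mul_le_mul_of_nonneg_right (le_max_left _ _) (by linarith)
  have h4 : ‖x - m.c k‖ ≤ max (m.ρ k) ‖x - m.c k‖ := le_max_right _ _
  linarith

lemma coercive {D : ℕ} (hD : 0 < D) (c : ℝ) :
    Tendsto (fun x => (D * m.U x + c) - (D - 1 : ℕ) * Real.log (1 + ‖x‖))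
      (cocompact ℂ) atTop := by
  obtain ⟨C, hC⟩ := m.exists_le_U
  have h1 : Tendsto (fun x : ℂ => Real.log (1 + ‖x‖) + (c - D * C)) (cocompact ℂ) atTop := by
    refine tendsto_atTop_add_const_right _ _ ?_
    exact Real.tendsto_log_atTop.comp
      (tendsto_atTop_add_const_left _ 1 (tendsto_norm_cocompact_atTop))
  refine tendsto_atTop_mono (fun x => ?_) h1
  have h2 := hC x
  have h3 : ((D - 1 : ℕ) : ℝ) = D - 1 := by
    rw [Nat.cast_sub hD]; simp
  have h4 : (0 : ℝ) < D := Nat.cast_pos.2 hD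
  rw [h3]
  nlinarith [mul_le_mul_of_nonneg_left h2 h4.le]

end CircMeas

variable {β : Type*} [Fintype β] [LinearOrder β] {D : β → ℕ}

/-- **the bound with one circle measure per block** -/
theorem arch_circ {κ : β → Type*} [∀ b, Fintype (κ b)] (m : ∀ b, CircMeas (κ b)) (c : β → ℝ)
    (hD : ∀ b, 0 < D b)
    (A : Matrix (Σ b, Fin (D b)) (Σ b, Fin (D b)) ℂ)
    (r : (Σ b, Fin (D b)) → ℕ) (hr : Function.Injective r) (B : (Σ b, Fin (D b)) → ℝ)
    (M : ℝ) (hM0 : 0 < M) (hM : ∀ b, (D b : ℝ) ≤ M)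
    (h : ∀ a, ∀ P : (Σ b, Fin (D b)) → ℂ,
      (∀ b x, ‖ev P b x‖ ≤ Real.exp (D b * (m b).U x + c b)) →
      (∀ a', r a' < r a → ∑ i, P i * A i a' = 0) → ‖∑ i, P i * A i a‖ ≤ B a) :
    ‖A.det‖ ≤ (∏ a, (M * B a)) * Real.exp (∑ b, (D b * (m b).Wc + D b * Real.log (D b) / 2) -
      ∑ b, ((D b : ℝ) ^ 2 * (m b).En / 2 + D b * c b)) := by
  have h1 := arch_frame (D := D) (fun b x => D b * (m b).U x + c b)
    (fun b => ((D b : ℝ) ^ 2 * (m b).En / 2 + D b * c b) -
      (D b * (m b).Wc + D b * Real.log (D b) / 2))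
    (fun b => (continuous_const.mul (m b).continuous_U).add continuous_const)
    (fun b => (m b).coercive (hD b) (c b)) ?_ A r hr B M hM0 hM h
  · refine h1.trans_eq ?_
    congr 2
    rw [Finset.sum_sub_distrib]
    ring
  · intro b s
    refine (energy (m b) (hD b) s).trans_eq ?_
    congr 1
    rw [Finset.sum_add_distrib, Finset.sum_const, Finset.card_univ, Fintype.card_fin,
      nsmul_eq_mul, ← Finset.mul_sum]
    ring

end Vale.Agent.P030.H54
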