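import Mathlib

/-!
# Weighted Fekete points
-/

namespace Vale.Agent.P030.H54

open Finset Filter Topology Real Matrix

/-- crude bound for the Vandermonde determinant -/
lemma norm_det_vandermonde_le {D : ℕ} (s : Fin D → ℂ) :
    ‖(vandermonde s).det‖ ≤ (D.factorial : ℝ) * ∏ i, (1 + ‖s i‖) ^ (D - 1) := by
  rw [Matrix.det_apply]
  refine (norm_sum_le _ _).trans ?_
  have h : ∀ σ ∈ (Finset.univ : Finset (Equiv.Perm (Fin D))),
      ‖Equiv.Perm.sign σ • ∏ i, vandermonde s (σ i) i‖ ≤ ∏ i, (1 + ‖s i‖) ^ (D - 1) := by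
    intro σ _
    have h1 : ‖Equiv.Perm.sign σ • ∏ i, vandermonde s (σ i) i‖ =
        ∏ i, ‖vandermonde s (σ i) i‖ := by
      rcases Int.units_eq_one_or (Equiv.Perm.sign σ) with h | h <;> simp [h]
    rw [h1, ← Equiv.prod_comp σ (fun i => (1 + ‖s i‖) ^ (D - 1))]
    refine Finset.prod_le_prod (fun i _ => norm_nonneg _) fun i _ => ?_
    rw [vandermonde_apply, norm_pow]
    have h2 : (1 : ℝ) ≤ 1 + ‖s (σ i)‖ := by linarith [norm_nonneg (s (σ i))]
    have h3 : ‖s (σ i)‖ ^ (i : ℕ) ≤ (1 + ‖s (σ i)‖) ^ (i : ℕ) :=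
      pow_le_pow_left₀ (norm_nonneg _) (by linarith) _
    exact h3.trans (pow_le_pow_right₀ h2 (by omega))
  refine (Finset.sum_le_sum h).trans_eq ?_
  rw [Finset.sum_const, Finset.card_univ, Fintype.card_perm, Fintype.card_fin, nsmul_eq_mul]

lemma vandermonde_update {D : ℕ} (s : Fin D → ℂ) (i : Fin D) (x : ℂ) :
    vandermonde (Function.update s i x) = (vandermonde s).updateRow i (fun a => x ^ (a : ℕ)) := by
  ext j a
  by_cases h : j = i
  · subst h; simp [vandermonde_apply]
  · simp [vandermonde_apply, h]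

/-- existence of weighted Fekete points for a coercive weight -/
theorem exists_fekete (D : ℕ) (W : ℂ → ℝ) (hW : Continuous W)
    (hco : Tendsto (fun x => W x - (D - 1 : ℕ) * Real.log (1 + ‖x‖)) (cocompact ℂ) atTop) :
    ∃ s : Fin D → ℂ, (vandermonde s).det ≠ 0 ∧ ∀ i x,
      ‖((vandermonde s).updateRow i (fun a => x ^ (a : ℕ))).det‖ ≤
        ‖(vandermonde s).det‖ * Real.exp (W x - W (s i)) := by
  set G : (Fin D → ℂ) → ℝ := fun s => ‖(vandermonde s).det‖ * Real.exp (-∑ i, W (s i)) with hG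
  set g : ℂ → ℝ := fun x => (1 + ‖x‖) ^ (D - 1) * Real.exp (-W x) with hg
  have hgc : Continuous g := by
    rw [hg]; fun_prop
  have hg0 : ∀ x, 0 < g x := fun x => by
    rw [hg]; have := norm_nonneg x; positivity
  have hgl : Tendsto g (cocompact ℂ) (𝓝 0) := by
    have h1 : Tendsto (fun x => Real.exp (-(W x - (D - 1 : ℕ) * Real.log (1 + ‖x‖))))
        (cocompact ℂ) (𝓝 0) := Real.tendsto_exp_neg_atTop_nhds_zero.comp hco
    refine h1.congr fun x => ?_
    have h2 : 0 < 1 + ‖x‖ := by have := norm_nonneg x; positivity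
    rw [neg_sub, sub_eq_add_neg, Real.exp_add, hg, ← Real.log_pow, Real.exp_log (by positivity)]
  have hGc : Continuous G := by
    refine Continuous.mul ?_ ?_
    · refine Continuous.norm (Continuous.matrix_det ?_)
      refine continuous_matrix fun i j => ?_
      simp only [vandermonde_apply]
      fun_prop
    · refine Real.continuous_exp.comp (Continuous.neg ?_)
      exact continuous_finsetSum _ fun i _ => hW.comp (continuous_apply i)
  have hGg : ∀ s, G s ≤ D.factorial * ∏ i, g (s i) := by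
    intro s
    have h1 := mul_le_mul_of_nonneg_right (norm_det_vandermonde_le s)
      (Real.exp_pos (-∑ i, W (s i))).le
    refine h1.trans_eq ?_
    rw [← Finset.sum_neg_distrib, Real.exp_sum, mul_assoc, ← Finset.prod_mul_distrib]
  -- `g` is bounded
  obtain ⟨x₁, hM⟩ : ∃ x₁ : ℂ, ∀ x, g x ≤ g x₁ :=
    hgc.exists_forall_ge' 0 (hgl.eventually (Iic_mem_nhds (hg0 0)))
  set M : ℝ := g x₁ with hMdef
  have hM0 : 0 < M := hg0 _
  -- a reference configuration
  set s₀ : Fin D → ℂ := fun i => ((i : ℕ) : ℂ) with hs₀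
  have hs₀d : (vandermonde s₀).det ≠ 0 := by
    rw [det_vandermonde_ne_zero_iff]
    intro a b hab
    have : ((a : ℕ) : ℂ) = ((b : ℕ) : ℂ) := hab
    exact Fin.ext (by exact_mod_cast this)
  have hGs₀ : 0 < G s₀ := mul_pos (norm_pos_iff.2 hs₀d) (Real.exp_pos _)
  set ε : ℝ := G s₀ / (D.factorial * M ^ (D - 1)) with hε
  have hden : (0 : ℝ) < D.factorial * M ^ (D - 1) := by
    have := Nat.factorial_pos D
    positivity
  have hε0 : 0 < ε := div_pos hGs₀ hden
  have hev : ∀ᶠ s in cocompact (Fin D → ℂ), G s ≤ G s₀ := by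
    rw [← Filter.coprodᵢ_cocompact]
    refine Filter.mem_coprodᵢ_iff.2 fun i => ⟨{x | g x ≤ ε}, hgl.eventually (Iic_mem_nhds hε0), ?_⟩
    intro s hs
    have hs1 : g (s i) ≤ ε := hs
    have h1 : ∏ j, g (s j) ≤ ε * M ^ (D - 1) := by
      rw [← Finset.mul_prod_erase Finset.univ _ (Finset.mem_univ i)]
      refine mul_le_mul hs1 ?_ (Finset.prod_nonneg fun j _ => (hg0 _).le) hε0.le
      calc ∏ x ∈ Finset.univ.erase i, g (s x) ≤ ∏ x ∈ Finset.univ.erase i, M :=
            Finset.prod_le_prod (fun j _ => (hg0 _).le) fun j _ => hM _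
        _ = M ^ (D - 1) := by
            rw [Finset.prod_const, Finset.card_erase_of_mem (Finset.mem_univ i),
              Finset.card_univ, Fintype.card_fin]
    calc G s ≤ D.factorial * ∏ j, g (s j) := hGg s
      _ ≤ D.factorial * (ε * M ^ (D - 1)) := by gcongr
      _ = G s₀ := by rw [hε]; field_simp
  obtain ⟨s, hs⟩ := hGc.exists_forall_ge' s₀ hev
  have hGs : 0 < G s := hGs₀.trans_le (hs s₀)
  refine ⟨s, fun h0 => ?_, fun i x => ?_⟩
  · rw [hG] at hGs
    simp [h0] at hGs
  · have h1 := hs (Function.update s i x)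
    rw [hG] at h1
    simp only [vandermonde_update] at h1
    have h2 : ∑ j, W (Function.update s i x j) = ∑ j, W (s j) + (W x - W (s i)) := by
      rw [← Finset.add_sum_erase _ _ (Finset.mem_univ i),
        ← Finset.add_sum_erase (a := i) Finset.univ (fun j => W (s j)) (Finset.mem_univ i)]
      have h3 : ∑ j ∈ Finset.univ.erase i, W (Function.update s i x j) =
          ∑ j ∈ Finset.univ.erase i, W (s j) :=
        Finset.sum_congr rfl fun j hj => by
          rw [Function.update_of_ne (Finset.ne_of_mem_erase hj)]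
      rw [h3, Function.update_self]
      ring
    rw [h2] at h1
    have h4 : Real.exp (-(∑ j, W (s j) + (W x - W (s i)))) =
        Real.exp (-∑ j, W (s j)) * Real.exp (-(W x - W (s i))) := by
      rw [← Real.exp_add]; congr 1; ring
    rw [h4] at h1
    have h5 : 0 < Real.exp (-∑ j, W (s j)) := Real.exp_pos _
    have h6 : 0 < Real.exp (-(W x - W (s i))) := Real.exp_pos _
    have h7 : ‖((vandermonde s).updateRow i (fun a => x ^ (a : ℕ))).det‖ *
        Real.exp (-(W x - W (s i))) ≤ ‖(vandermonde s).det‖ := by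
      refine le_of_mul_le_mul_right ?_ h5
      calc _ = ‖((vandermonde s).updateRow i (fun a => x ^ (a : ℕ))).det‖ *
            (Real.exp (-∑ j, W (s j)) * Real.exp (-(W x - W (s i)))) := by ring
        _ ≤ _ := h1
    calc ‖((vandermonde s).updateRow i (fun a => x ^ (a : ℕ))).det‖
        = ‖((vandermonde s).updateRow i (fun a => x ^ (a : ℕ))).det‖ *
          Real.exp (-(W x - W (s i))) * Real.exp (W x - W (s i)) := by
          rw [mul_assoc, ← Real.exp_add]; simp
      _ ≤ _ := by gcongr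

end Vale.Agent.P030.H54
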