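import Vale.Agent.P030.H54.Energy
import Vale.Agent.P030.H54.Fekete
import Vale.Agent.P030.H826.Flag

/-!
# The archimedean bound with weights

`ι = Σ b, Fin (D b)` : coefficient vectors of families of polynomials `P b` of degree `< D b`.
A square matrix `A` over `ι`; the columns are functionals.  If the energy inequality holds for the
weights `W b` and every column `a`, restricted to the `P` with `|P b| ≤ exp (W b)` which are killed by
the earlier columns, is bounded by `B a`, then `|det A| ≤ ∏ (D B a) exp (- ∑ E b)`.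
-/

namespace Vale.Agent.P030.H54

open Finset Filter Topology Real Matrix

/-- determinant of a block diagonal matrix -/
theorem det_bd' {R β : Type*} [CommRing R] [Fintype β] [LinearOrder β] {D : β → ℕ}
    (T : ∀ b, Matrix (Fin (D b)) (Fin (D b)) R) :
    (Matrix.blockDiagonal' T).det = ∏ b, (T b).det := by
  rw [(blockTriangular_blockDiagonal' T).det_fintype]
  refine Finset.prod_congr rfl fun k _ => ?_
  let e : Fin (D k) ≃ {a : Σ b, Fin (D b) // a.1 = k} :=
    { toFun := fun i => ⟨⟨k, i⟩, rfl⟩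
      invFun := fun a => a.2 ▸ a.1.2
      left_inv := fun i => rfl
      right_inv := by rintro ⟨⟨b, i⟩, rfl⟩; rfl }
  rw [← Matrix.det_submatrix_equiv_self e]
  congr 1
  ext i j
  simp [toSquareBlock_def, e]

/-- Cramer: `∑_a x^a (V⁻¹) a i = det (V with row i replaced by x^a) / det V` -/
lemma lagrange_eq {D : ℕ} (V : Matrix (Fin D) (Fin D) ℂ) (v : Fin D → ℂ) (i : Fin D) :
    ∑ a, v a * V⁻¹ a i = (V.updateRow i v).det / V.det := by
  have h1 : V⁻¹ = V.det⁻¹ • V.adjugate := by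
    rw [Matrix.inv_def, Ring.inverse_eq_inv']
  have h2 : (V.updateRow i v).det = ∑ a, v a * V.adjugate a i := by
    rw [← Matrix.det_transpose, ← Matrix.updateCol_transpose]
    rw [← Matrix.cramer_apply]
    rw [Matrix.cramer_eq_adjugate_mulVec, Matrix.mulVec, dotProduct, ← Matrix.adjugate_transpose]
    refine Finset.sum_congr rfl fun a _ => ?_
    rw [Matrix.transpose_apply, mul_comm]
  rw [h1, h2, Finset.sum_div]
  refine Finset.sum_congr rfl fun a _ => ?_
  rw [Matrix.smul_apply, smul_eq_mul]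
  ring

variable {β : Type*} [Fintype β] [LinearOrder β] {D : β → ℕ}

/-- the value at `x` of the `b`-th polynomial of a coefficient vector -/
noncomputable def ev (P : (Σ b, Fin (D b)) → ℂ) (b : β) (x : ℂ) : ℂ :=
  ∑ i : Fin (D b), P ⟨b, i⟩ * x ^ (i : ℕ)

/-- **the weighted bound** -/
theorem arch_frame (W : β → ℂ → ℝ) (E : β → ℝ)
    (hW : ∀ b, Continuous (W b))
    (hco : ∀ b, Tendsto (fun x => W b x - (D b - 1 : ℕ) * Real.log (1 + ‖x‖))
      (cocompact ℂ) atTop)
    (hE : ∀ b, ∀ s : Fin (D b) → ℂ,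
      ∏ i, ∏ j ∈ Ioi i, ‖s j - s i‖ ≤ Real.exp (∑ i, W b (s i) - E b))
    (A : Matrix (Σ b, Fin (D b)) (Σ b, Fin (D b)) ℂ)
    (r : (Σ b, Fin (D b)) → ℕ) (hr : Function.Injective r) (B : (Σ b, Fin (D b)) → ℝ)
    (M : ℝ) (hM0 : 0 < M) (hM : ∀ b, (D b : ℝ) ≤ M)
    (h : ∀ a, ∀ P : (Σ b, Fin (D b)) → ℂ, (∀ b x, ‖ev P b x‖ ≤ Real.exp (W b x)) →
      (∀ a', r a' < r a → ∑ i, P i * A i a' = 0) → ‖∑ i, P i * A i a‖ ≤ B a) :
    ‖A.det‖ ≤ (∏ a, (M * B a)) * Real.exp (-∑ b, E b) := by
  classical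
  choose s hs0 hs using fun b => exists_fekete (D b) (W b) (hW b) (hco b)
  let V : ∀ b, Matrix (Fin (D b)) (Fin (D b)) ℂ := fun b => vandermonde (s b)
  let T : ∀ b, Matrix (Fin (D b)) (Fin (D b)) ℂ := fun b =>
    Matrix.diagonal (fun i => (Real.exp (W b (s b i)) : ℂ)) * ((V b)⁻¹)ᵀ
  have hTdet : ∀ b, Real.exp (E b) ≤ ‖(T b).det‖ := by
    intro b
    have h1 : ‖(T b).det‖ = Real.exp (∑ i, W b (s b i)) / ‖(V b).det‖ := by
      simp only [T]
      rw [Matrix.det_mul, Matrix.det_diagonal, Matrix.det_transpose, Matrix.det_nonsing_inv,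
        Ring.inverse_eq_inv', norm_mul, norm_inv, norm_prod, Real.exp_sum, div_eq_mul_inv]
      congr 1
      refine Finset.prod_congr rfl fun i _ => ?_
      rw [Complex.norm_real, Real.norm_of_nonneg (Real.exp_pos _).le]
    have h2 : ‖(V b).det‖ = ∏ i, ∏ j ∈ Ioi i, ‖s b j - s b i‖ := by
      simp only [V]
      rw [det_vandermonde, norm_prod]
      exact Finset.prod_congr rfl fun i _ => norm_prod _ _
    have h3 : 0 < ‖(V b).det‖ := norm_pos_iff.2 (hs0 b)
    rw [h1, le_div_iff₀ h3, h2]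
    calc Real.exp (E b) * ∏ i, ∏ j ∈ Ioi i, ‖s b j - s b i‖
        ≤ Real.exp (E b) * Real.exp (∑ i, W b (s b i) - E b) := by
          gcongr; exact hE b (s b)
      _ = Real.exp (∑ i, W b (s b i)) := by rw [← Real.exp_add]; congr 1; ring
  let N : Matrix (Σ b, Fin (D b)) (Σ b, Fin (D b)) ℂ := Matrix.blockDiagonal' T
  have hNdet : Real.exp (∑ b, E b) ≤ ‖N.det‖ := by
    have h1 : N.det = ∏ b, (T b).det := det_bd' T
    rw [h1, norm_prod, Real.exp_sum]
    exact Finset.prod_le_prod (fun b _ => (Real.exp_pos _).le) fun b _ => hTdet b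
  -- the row basis
  have hT : ∀ b i a, T b i a = Real.exp (W b (s b i)) * (V b)⁻¹ a i := by
    intro b i a
    simp only [T]
    rw [Matrix.diagonal_mul, Matrix.transpose_apply]
  have hbasis : ∀ b i x, ‖∑ a, T b i a * x ^ (a : ℕ)‖ ≤ Real.exp (W b x) := by
    intro b i x
    have h1 : ∑ a, T b i a * x ^ (a : ℕ) =
        Real.exp (W b (s b i)) * (((V b).updateRow i (fun a => x ^ (a : ℕ))).det / (V b).det) := by
      rw [← lagrange_eq, Finset.mul_sum]
      refine Finset.sum_congr rfl fun a _ => ?_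
      rw [hT]; ring
    have h3 : 0 < ‖(V b).det‖ := norm_pos_iff.2 (hs0 b)
    rw [h1, norm_mul, norm_div, Complex.norm_real, Real.norm_of_nonneg (Real.exp_pos _).le]
    calc Real.exp (W b (s b i)) *
          (‖((V b).updateRow i (fun a => x ^ (a : ℕ))).det‖ / ‖(V b).det‖)
        ≤ Real.exp (W b (s b i)) * Real.exp (W b x - W b (s b i)) := by
          gcongr
          rw [div_le_iff₀ h3, mul_comm]
          exact hs b i x
      _ = Real.exp (W b x) := by rw [← Real.exp_add]; congr 1; ring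
  have hev : ∀ c : (Σ b, Fin (D b)) → ℂ, ∀ b x,
      ev (c ᵥ* N) b x = ∑ i : Fin (D b), c ⟨b, i⟩ * ∑ a, T b i a * x ^ (a : ℕ) := by
    intro c b x
    have h1 : ∀ a : Fin (D b), (c ᵥ* N) ⟨b, a⟩ = ∑ i : Fin (D b), c ⟨b, i⟩ * T b i a := by
      intro a
      rw [Matrix.vecMul, dotProduct, Fintype.sum_sigma]
      rw [Finset.sum_eq_single b]
      · refine Finset.sum_congr rfl fun i _ => ?_
        simp only [N]
        rw [Matrix.blockDiagonal'_apply_eq]
      · intro b' _ hb'
        refine Finset.sum_eq_zero fun i _ => ?_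
        simp only [N]
        rw [Matrix.blockDiagonal'_apply_ne _ _ _ hb', mul_zero]
      · intro hb; exact absurd (Finset.mem_univ _) hb
    unfold ev
    simp only [h1, Finset.sum_mul, Finset.mul_sum]
    rw [Finset.sum_comm]
    refine Finset.sum_congr rfl fun i _ => Finset.sum_congr rfl fun a _ => ?_
    ring
  -- the flag bound
  have hflag : ‖(N * A).det‖ ≤ ∏ a, (M * B a) := by
    refine H826.det_le_of_flag r hr (N * A) (fun a => M * B a) fun a c hc hk => ?_
    have hrw : ∀ a', ∑ i, c i * (N * A) i a' = ∑ i, (c ᵥ* N) i * A i a' := by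
      intro a'
      change (c ᵥ* (N * A)) a' = ((c ᵥ* N) ᵥ* A) a'
      rw [Matrix.vecMul_vecMul]
    have h1 := h a (fun i => (M : ℂ)⁻¹ * (c ᵥ* N) i) ?_ ?_
    · rw [hrw]
      have h2 : ∑ i, (M : ℂ)⁻¹ * (c ᵥ* N) i * A i a = (M : ℂ)⁻¹ * ∑ i, (c ᵥ* N) i * A i a := by
        rw [Finset.mul_sum]
        exact Finset.sum_congr rfl fun i _ => by ring
      rw [h2, norm_mul, norm_inv, Complex.norm_real, Real.norm_of_nonneg hM0.le] at h1
      rw [inv_mul_le_iff₀ hM0] at h1
      exact h1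
    · intro b x
      have h2 : ev (fun i => (M : ℂ)⁻¹ * (c ᵥ* N) i) b x = (M : ℂ)⁻¹ * ev (c ᵥ* N) b x := by
        unfold ev
        rw [Finset.mul_sum]
        exact Finset.sum_congr rfl fun i _ => by ring
      rw [h2, norm_mul, norm_inv, Complex.norm_real, Real.norm_of_nonneg hM0.le,
        inv_mul_le_iff₀ hM0, hev]
      calc ‖∑ i : Fin (D b), c ⟨b, i⟩ * ∑ a, T b i a * x ^ (a : ℕ)‖
          ≤ ∑ i : Fin (D b), ‖c ⟨b, i⟩ * ∑ a, T b i a * x ^ (a : ℕ)‖ := norm_sum_le _ _
        _ ≤ ∑ _i : Fin (D b), Real.exp (W b x) := by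
            refine Finset.sum_le_sum fun i _ => ?_
            rw [norm_mul]
            calc _ ≤ 1 * Real.exp (W b x) :=
                  mul_le_mul (hc _) (hbasis b i x) (norm_nonneg _) zero_le_one
              _ = _ := one_mul _
        _ = D b * Real.exp (W b x) := by
            rw [Finset.sum_const, Finset.card_univ, Fintype.card_fin, nsmul_eq_mul]
        _ ≤ M * Real.exp (W b x) := by gcongr; exact hM b
    · intro a' ha'
      have h2 : ∑ i, (M : ℂ)⁻¹ * (c ᵥ* N) i * A i a' = (M : ℂ)⁻¹ * ∑ i, (c ᵥ* N) i * A i a' := by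
        rw [Finset.mul_sum]
        exact Finset.sum_congr rfl fun i _ => by ring
      rw [h2, ← hrw, hk a' ha', mul_zero]
  rw [Matrix.det_mul, norm_mul] at hflag
  have h5 : Real.exp (∑ b, E b) * ‖A.det‖ ≤ ∏ a, (M * B a) :=
    (mul_le_mul_of_nonneg_right hNdet (norm_nonneg _)).trans hflag
  have h6 : 0 < Real.exp (-∑ b, E b) := Real.exp_pos _
  calc ‖A.det‖ = (Real.exp (∑ b, E b) * ‖A.det‖) * Real.exp (-∑ b, E b) := by
        rw [mul_comm (Real.exp _), mul_assoc, ← Real.exp_add]; simp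
    _ ≤ _ := by gcongr

end Vale.Agent.P030.H54
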