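import Mathlib

/-!
# Conditional negativity of the kernel `log (|x - y|^2 + ε)` on the complex plane
-/

namespace Vale.Agent.P030.H54

open Finset Filter Topology MeasureTheory

/-- positive semidefinite real kernels on a finite set -/
def PSD {ι : Type*} [Fintype ι] (K : ι → ι → ℝ) : Prop :=
  ∀ r : ι → ℝ, 0 ≤ ∑ p, ∑ p', r p * r p' * K p p'

variable {ι : Type*} [Fintype ι]

lemma psd_one : PSD (fun _ _ : ι => (1 : ℝ)) := by
  intro r
  have : ∑ p, ∑ p', r p * r p' * (1 : ℝ) = (∑ p, r p) * (∑ p, r p) := by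
    rw [Finset.sum_mul_sum]; simp
  rw [this]; exact mul_self_nonneg _

lemma psd_scale {K : ι → ι → ℝ} (hK : PSD K) (a : ι → ℝ) :
    PSD (fun p p' => a p * a p' * K p p') := by
  intro r
  have := hK (fun p => r p * a p)
  refine this.trans_eq (Finset.sum_congr rfl fun p _ => Finset.sum_congr rfl fun p' _ => ?_)
  ring

lemma psd_mul_exp {K : ι → ι → ℝ} (hK : PSD K) (a : ι → ℝ) {c : ℝ} (hc : 0 ≤ c) :
    PSD (fun p p' => Real.exp (c * (a p * a p')) * K p p') := by
  intro r
  have h : HasSum (fun n : ℕ => ∑ p, ∑ p', r p * r p' *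
      ((c * (a p * a p')) ^ n / (n.factorial : ℝ) * K p p'))
      (∑ p, ∑ p', r p * r p' * (Real.exp (c * (a p * a p')) * K p p')) := by
    refine hasSum_sum fun p _ => hasSum_sum fun p' _ => ?_
    refine HasSum.mul_left _ (HasSum.mul_right _ ?_)
    rw [Real.exp_eq_exp_ℝ]
    exact NormedSpace.expSeries_div_hasSum_exp (c * (a p * a p'))
  refine h.nonneg fun n => ?_
  have h2 := hK (fun p => r p * a p ^ n)
  have h3 : ∑ p, ∑ p', r p * r p' * ((c * (a p * a p')) ^ n / (n.factorial : ℝ) * K p p')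
      = (c ^ n / (n.factorial : ℝ)) *
        ∑ p, ∑ p', (r p * a p ^ n) * (r p' * a p' ^ n) * K p p' := by
    rw [Finset.mul_sum]
    refine Finset.sum_congr rfl fun p _ => ?_
    rw [Finset.mul_sum]
    refine Finset.sum_congr rfl fun p' _ => ?_
    rw [mul_pow, mul_pow]; ring
  rw [h3]
  exact mul_nonneg (by positivity) h2

lemma psd_gauss (x : ι → ℂ) {t : ℝ} (ht : 0 ≤ t) :
    PSD (fun p p' => Real.exp (-(t * ‖x p - x p'‖ ^ 2))) := by
  have h1 := psd_scale (psd_mul_exp (psd_mul_exp (psd_one (ι := ι)) (fun p => (x p).re)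
    (c := 2 * t) (by linarith)) (fun p => (x p).im) (c := 2 * t) (by linarith))
    (fun p => Real.exp (-(t * ‖x p‖ ^ 2)))
  intro r
  refine (h1 r).trans_eq (Finset.sum_congr rfl fun p _ => Finset.sum_congr rfl fun p' _ => ?_)
  congr 1
  beta_reduce
  rw [mul_one, ← Real.exp_add, ← Real.exp_add, ← Real.exp_add]
  congr 1
  rw [← Complex.normSq_eq_norm_sq, ← Complex.normSq_eq_norm_sq, ← Complex.normSq_eq_norm_sq]
  simp only [Complex.normSq_apply, Complex.sub_re, Complex.sub_im]
  ring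

lemma psd_inv (x : ι → ℂ) {ε : ℝ} (hε : 0 < ε) :
    PSD (fun p p' => (‖x p - x p'‖ ^ 2 + ε)⁻¹) := by
  intro r
  have hpos : ∀ p p', 0 < ‖x p - x p'‖ ^ 2 + ε := fun p p' => by positivity
  have hI : ∀ p p', IntegrableOn (fun t : ℝ => Real.exp (-(‖x p - x p'‖ ^ 2 + ε) * t))
      (Set.Ioi 0) := fun p p' => integrableOn_exp_mul_Ioi (by linarith [hpos p p']) 0
  have hv : ∀ p p', (‖x p - x p'‖ ^ 2 + ε)⁻¹ =
      ∫ t in Set.Ioi (0 : ℝ), Real.exp (-(‖x p - x p'‖ ^ 2 + ε) * t) := by
    intro p p'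
    rw [integral_exp_mul_Ioi (by linarith [hpos p p']) 0, mul_zero, Real.exp_zero]
    rw [neg_div_neg_eq, one_div]
  have h : ∑ p, ∑ p', r p * r p' * (‖x p - x p'‖ ^ 2 + ε)⁻¹ =
      ∫ t in Set.Ioi (0 : ℝ), ∑ p, ∑ p', r p * r p' *
        Real.exp (-(‖x p - x p'‖ ^ 2 + ε) * t) := by
    rw [integral_finsetSum]
    · refine Finset.sum_congr rfl fun p _ => ?_
      rw [integral_finsetSum]
      · refine Finset.sum_congr rfl fun p' _ => ?_
        rw [integral_const_mul, hv]
      · intro p' _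
        exact (hI p p').const_mul _
    · intro p _
      exact integrable_finsetSum _ fun p' _ => (hI p p').const_mul _
  rw [h]
  refine setIntegral_nonneg measurableSet_Ioi fun t ht => ?_
  have ht' : (0 : ℝ) ≤ t := le_of_lt ht
  have h2 := psd_scale (psd_gauss x ht') (fun _ => Real.exp (-(ε * t) / 2))
  refine (h2 r).trans_eq (Finset.sum_congr rfl fun p _ => Finset.sum_congr rfl fun p' _ => ?_)
  congr 1
  beta_reduce
  rw [← Real.exp_add, ← Real.exp_add]
  congr 1
  ring

/-- The kernel `log (|x - y|^2 + ε)` is conditionally negative definite. -/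
theorem log_cpd (x : ι → ℂ) (q : ι → ℝ) (hq : ∑ p, q p = 0) {ε : ℝ} (hε : 0 < ε) :
    ∑ p, ∑ p', q p * q p' * Real.log (‖x p - x p'‖ ^ 2 + ε) ≤ 0 := by
  set φ : ℝ → ℝ := fun e => ∑ p, ∑ p', q p * q p' * Real.log (‖x p - x p'‖ ^ 2 + e) with hφ
  have hpos : ∀ e : ℝ, 0 < e → ∀ p p', 0 < ‖x p - x p'‖ ^ 2 + e :=
    fun e he p p' => by positivity
  have hder : ∀ e : ℝ, 0 < e → HasDerivAt φ
      (∑ p, ∑ p', q p * q p' * (‖x p - x p'‖ ^ 2 + e)⁻¹) e := by
    intro e he
    refine HasDerivAt.fun_sum fun p _ => HasDerivAt.fun_sum fun p' _ => ?_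
    refine HasDerivAt.const_mul _ ?_
    have := ((hasDerivAt_id e).const_add (‖x p - x p'‖ ^ 2)).log (hpos e he p p').ne'
    simpa [one_div] using this
  have hmono : MonotoneOn φ (Set.Ioi 0) := by
    refine monotoneOn_of_deriv_nonneg (convex_Ioi 0) ?_ ?_ ?_
    · exact fun e he => (hder e he).continuousAt.continuousWithinAt
    · rw [interior_Ioi]
      exact fun e he => (hder e he).differentiableAt.differentiableWithinAt
    · rw [interior_Ioi]
      intro e he
      rw [(hder e he).deriv]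
      exact psd_inv x he q
  have hlim : Tendsto φ atTop (𝓝 0) := by
    have h1 : ∀ᶠ e : ℝ in atTop, (∑ p, ∑ p', q p * q p' *
        Real.log (‖x p - x p'‖ ^ 2 / e + 1)) = φ e := by
      filter_upwards [eventually_gt_atTop 0] with e he
      have h2 : ∀ p p', Real.log (‖x p - x p'‖ ^ 2 / e + 1) =
          Real.log (‖x p - x p'‖ ^ 2 + e) - Real.log e := by
        intro p p'
        rw [← Real.log_div (hpos e he p p').ne' he.ne']
        congr 1
        field_simp
      simp only [h2, hφ, mul_sub, Finset.sum_sub_distrib]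
      have h3 : ∑ p, ∑ p', q p * q p' * Real.log e = 0 := by
        have : ∀ p, ∑ p', q p * q p' * Real.log e = q p * (∑ p', q p') * Real.log e := by
          intro p
          rw [Finset.mul_sum, Finset.sum_mul]
        simp only [this, hq]; simp
      rw [h3, sub_zero]
    refine Tendsto.congr' h1 ?_
    have h4 : Tendsto (fun e : ℝ => ∑ p, ∑ p', q p * q p' *
        Real.log (‖x p - x p'‖ ^ 2 / e + 1)) atTop
        (𝓝 (∑ p, ∑ p', q p * q p' * Real.log (0 + 1))) := by
      refine tendsto_finsetSum _ fun p _ => tendsto_finsetSum _ fun p' _ => ?_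
      refine Tendsto.const_mul _ ?_
      have h5 : Tendsto (fun e : ℝ => ‖x p - x p'‖ ^ 2 / e + 1) atTop (𝓝 (0 + 1)) :=
        (tendsto_const_nhds.div_atTop tendsto_id).add_const 1
      exact (Real.continuousAt_log (by norm_num)).tendsto.comp h5
    simpa using h4
  refine ge_of_tendsto hlim ?_
  filter_upwards [eventually_ge_atTop ε] with e he
  exact hmono hε (lt_of_lt_of_le hε he) he

end Vale.Agent.P030.H54
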