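import Vale.Agent.P030.H54.Cpd
import Vale.Agent.P030.H54.Nodes

/-!
# The energy inequality for convex combinations of circle measures
-/

namespace Vale.Agent.P030.H54

open Finset Filter Topology MeasureTheory Real Polynomial

/-- a convex combination of uniform measures on circles -/
structure CircMeas (κ : Type*) [Fintype κ] where
  w : κ → ℝ
  c : κ → ℂ
  ρ : κ → ℝ
  w_nonneg : ∀ k, 0 ≤ w k
  w_sum : ∑ k, w k = 1
  ρ_pos : ∀ k, 0 < ρ k

variable {κ : Type*} [Fintype κ]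

namespace CircMeas

variable (m : CircMeas κ)

/-- its logarithmic potential -/
noncomputable def U (s : ℂ) : ℝ := ∑ k, m.w k * Real.log (max (m.ρ k) ‖s - m.c k‖)

/-- its logarithmic energy -/
noncomputable def En : ℝ := ∑ k, m.w k * circleAverage m.U (m.c k) (m.ρ k)

/-- the constant in the error term -/
noncomputable def Wc : ℝ := ∑ k, m.w k / m.ρ k

lemma max_pos (k : κ) (s : ℂ) : 0 < max (m.ρ k) ‖s - m.c k‖ := lt_max_of_lt_left (m.ρ_pos k)

lemma continuous_U : Continuous m.U := by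
  refine continuous_finsetSum _ fun k _ => continuous_const.mul ?_
  refine Continuous.log ?_ fun s => (m.max_pos k s).ne'
  fun_prop

end CircMeas

lemma sum_sum_symm {D : ℕ} (f : Fin D → Fin D → ℝ) (hf : ∀ i j, f i j = f j i)
    (h0 : ∀ i, f i i = 0) :
    ∑ i, ∑ j, f i j = 2 * ∑ i, ∑ j ∈ Finset.Ioi i, f j i := by
  have h1 : ∀ i, ∑ j, f i j = ∑ j ∈ Finset.Iio i, f i j + ∑ j ∈ Finset.Ioi i, f i j := by
    intro i
    have hu : (Finset.univ : Finset (Fin D)) = (Finset.Iio i ∪ Finset.Ioi i) ∪ {i} := by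
      ext j
      simp only [Finset.mem_univ, Finset.mem_union, Finset.mem_Iio, Finset.mem_Ioi,
        Finset.mem_singleton, true_iff]
      rcases lt_trichotomy j i with h | h | h
      · exact Or.inl (Or.inl h)
      · exact Or.inr h
      · exact Or.inl (Or.inr h)
    rw [hu, Finset.sum_union, Finset.sum_union, Finset.sum_singleton, h0, add_zero]
    · rw [Finset.disjoint_left]
      intro j hj hj'
      exact absurd (Finset.mem_Iio.1 hj) (not_lt.2 (Finset.mem_Ioi.1 hj').le)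
    · rw [Finset.disjoint_left]
      intro j hj hj'
      rw [Finset.mem_singleton] at hj'
      subst hj'
      rcases Finset.mem_union.1 hj with h | h
      · exact absurd (Finset.mem_Iio.1 h) (lt_irrefl _)
      · exact absurd (Finset.mem_Ioi.1 h) (lt_irrefl _)
  have h2 : ∑ i, ∑ j ∈ Finset.Iio i, f i j = ∑ i, ∑ j ∈ Finset.Ioi i, f j i := by
    refine Finset.sum_comm' fun i j => ?_
    simp [Finset.mem_Iio, Finset.mem_Ioi]
  simp only [h1, Finset.sum_add_distrib]
  rw [h2, two_mul]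
  congr 1
  exact Finset.sum_congr rfl fun i _ => Finset.sum_congr rfl fun j _ => hf i j

/-- the main inequality, before the limit in the number of nodes -/
lemma energy_aux (m : CircMeas κ) {D : ℕ} (s : Fin D → ℂ) {ε : ℝ} (hε : 0 < ε) :
    ∑ i, ∑ j, Real.log (‖s i - s j‖ ^ 2 + ε) ≤
      4 * D * ∑ i, m.U (s i) + 4 * D * D * √ε * m.Wc - 2 * D * D * m.En := by
  -- radius of validity
  obtain ⟨R, hR, hRε, hRs⟩ : ∃ R : ℝ, 0 < R ∧ √ε ≤ R ∧ ∀ k k' : κ, ∀ y : ℂ,
      ‖y - m.c k‖ ≤ m.ρ k → (‖y - m.c k'‖ + m.ρ k') ^ 2 + ε ≤ R ^ 2 := by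
    have h0 : 0 ≤ ∑ k, ∑ k', (m.ρ k + ‖m.c k - m.c k'‖ + m.ρ k') :=
      Finset.sum_nonneg fun k _ => Finset.sum_nonneg fun k' _ => by
        have := (m.ρ_pos k).le; have := (m.ρ_pos k').le; positivity
    refine ⟨∑ k, ∑ k', (m.ρ k + ‖m.c k - m.c k'‖ + m.ρ k') + √ε + 1, ?_, ?_, ?_⟩
    · have := Real.sqrt_nonneg ε
      linarith
    · linarith
    · intro k k' y hy
      have hnn : ∀ k k', 0 ≤ m.ρ k + ‖m.c k - m.c k'‖ + m.ρ k' := fun k k' => by
        have := (m.ρ_pos k).le; have := (m.ρ_pos k').le; positivity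
      have h1 : m.ρ k + ‖m.c k - m.c k'‖ + m.ρ k' ≤
          ∑ k, ∑ k', (m.ρ k + ‖m.c k - m.c k'‖ + m.ρ k') := by
        refine le_trans ?_ (Finset.single_le_sum (f := fun k => ∑ k',
          (m.ρ k + ‖m.c k - m.c k'‖ + m.ρ k')) (fun k _ => Finset.sum_nonneg fun k' _ => hnn k k')
          (Finset.mem_univ k))
        exact Finset.single_le_sum (f := fun k' => m.ρ k + ‖m.c k - m.c k'‖ + m.ρ k')
          (fun k' _ => hnn k k') (Finset.mem_univ k')
      have h2 : ‖y - m.c k'‖ ≤ m.ρ k + ‖m.c k - m.c k'‖ := by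
        have : y - m.c k' = (y - m.c k) + (m.c k - m.c k') := by ring
        rw [this]
        exact (norm_add_le _ _).trans (by linarith)
      have h3 : ‖y - m.c k'‖ + m.ρ k' ≤ ∑ k, ∑ k', (m.ρ k + ‖m.c k - m.c k'‖ + m.ρ k') := by
        linarith
      have h4 : 0 ≤ ‖y - m.c k'‖ + m.ρ k' := by have := (m.ρ_pos k').le; positivity
      set X := ∑ k, ∑ k', (m.ρ k + ‖m.c k - m.c k'‖ + m.ρ k')
      have h5 : √ε ^ 2 = ε := Real.sq_sqrt hε.le
      have h6 := Real.sqrt_nonneg ε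
      have h7 : (‖y - m.c k'‖ + m.ρ k') ^ 2 ≤ X ^ 2 := pow_le_pow_left₀ h4 h3 2
      nlinarith [mul_nonneg (h4.trans h3) h6]
  set X : ℝ := ∑ i, ∑ j, Real.log (‖s i - s j‖ ^ 2 + ε) with hX
  set B : ℝ := 4 * D * ∑ i, m.U (s i) + 4 * D * D * √ε * m.Wc - 2 * D * D * m.En with hB
  have hD0 : (0 : ℝ) ≤ D := Nat.cast_nonneg _
  have key : ∀ N : ℕ, 0 < N → (1 - √ε / R) ^ N ≤ 1 / 2 →
      X ≤ B + 6 * D * D * Real.log 2 / N := by
    intro N hN hNR
    have hNr : (0 : ℝ) < N := Nat.cast_pos.2 hN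
    choose v hv hvU using fun k => exists_good_rotation m.continuous_U (m.c k) (m.ρ k) hN
    set y : κ → ℂ → ℂ := fun k ζ => m.c k + m.ρ k * v k * ζ with hy
    have hyn : ∀ k, ∀ ζ ∈ mu N, ‖y k ζ - m.c k‖ ≤ m.ρ k := by
      intro k ζ hζ
      have : y k ζ - m.c k = m.ρ k * v k * ζ := by simp [hy]
      rw [this, norm_mul, norm_mul, hv, mu_norm hN hζ, Complex.norm_real,
        Real.norm_of_nonneg (m.ρ_pos k).le]
      simp
    -- conditional negativity
    let x : Fin D ⊕ (κ × (mu N)) → ℂ := Sum.elim s (fun p => y p.1 p.2)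
    let q : Fin D ⊕ (κ × (mu N)) → ℝ := Sum.elim (fun _ => 1) (fun p => -(D / N * m.w p.1))
    have hq : ∑ p, q p = 0 := by
      simp only [q, Fintype.sum_sum_type, Sum.elim_inl, Sum.elim_inr, Finset.sum_const,
        Finset.card_univ, Fintype.card_fin, nsmul_eq_mul, mul_one, Fintype.sum_prod_type,
        Finset.sum_neg_distrib, Fintype.card_coe, mu_card hN]
      rw [← Finset.mul_sum, ← Finset.mul_sum, m.w_sum]
      field_simp
      ring
    have hc := log_cpd x q hq hε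
    simp only [Fintype.sum_sum_type, x, q, Sum.elim_inl, Sum.elim_inr, one_mul, mul_one,
      Fintype.sum_prod_type, Finset.sum_add_distrib] at hc
    set T2 : ℝ := ∑ i, ∑ k, ∑ ζ ∈ mu N, m.w k * Real.log (‖s i - y k ζ‖ ^ 2 + ε) with hT2
    set T3 : ℝ := ∑ k, ∑ ζ ∈ mu N, ∑ k', ∑ ζ' ∈ mu N,
      m.w k * (m.w k' * Real.log (‖y k ζ - y k' ζ'‖ ^ 2 + ε)) with hT3
    have e2 : ∑ i : Fin D, ∑ k, ∑ ζ : mu N, -(D / N * m.w k) *
        Real.log (‖s i - y k ζ‖ ^ 2 + ε) = -(D / N) * T2 := by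
      rw [hT2, Finset.mul_sum]
      refine Finset.sum_congr rfl fun i _ => ?_
      rw [Finset.mul_sum]
      refine Finset.sum_congr rfl fun k _ => ?_
      rw [Finset.mul_sum, ← Finset.sum_coe_sort (mu N)]
      refine Finset.sum_congr rfl fun ζ _ => ?_
      ring
    have e2' : ∑ k, ∑ ζ : mu N, ∑ i : Fin D, -(D / N * m.w k) *
        Real.log (‖y k ζ - s i‖ ^ 2 + ε) = -(D / N) * T2 := by
      rw [← e2]
      have h1 : ∀ k, ∑ ζ : mu N, ∑ i : Fin D, -(D / N * m.w k) *
          Real.log (‖y k ζ - s i‖ ^ 2 + ε) = ∑ i : Fin D, ∑ ζ : mu N, -(D / N * m.w k) *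
          Real.log (‖s i - y k ζ‖ ^ 2 + ε) := by
        intro k
        rw [Finset.sum_comm]
        refine Finset.sum_congr rfl fun i _ => Finset.sum_congr rfl fun ζ _ => ?_
        rw [norm_sub_rev]
      rw [Finset.sum_congr rfl fun k _ => h1 k, Finset.sum_comm]
    have e3 : ∑ k, ∑ ζ : mu N, ∑ k', ∑ ζ' : mu N, -(D / N * m.w k) * -(D / N * m.w k') *
        Real.log (‖y k ζ - y k' ζ'‖ ^ 2 + ε) = (D / N) ^ 2 * T3 := by
      rw [hT3, Finset.mul_sum]
      refine Finset.sum_congr rfl fun k _ => ?_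
      rw [Finset.mul_sum, ← Finset.sum_coe_sort (mu N)]
      refine Finset.sum_congr rfl fun ζ _ => ?_
      rw [Finset.mul_sum]
      refine Finset.sum_congr rfl fun k' _ => ?_
      rw [Finset.mul_sum, ← Finset.sum_coe_sort (mu N)]
      refine Finset.sum_congr rfl fun ζ' _ => ?_
      ring
    rw [e2, e2', e3] at hc
    -- bounds
    have b2 : T2 ≤ 2 * N * ∑ i, m.U (s i) + 2 * N * √ε * D * m.Wc + 2 * D * Real.log 2 := by
      have h1 : ∀ i, ∑ k, ∑ ζ ∈ mu N, m.w k * Real.log (‖s i - y k ζ‖ ^ 2 + ε) ≤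
          2 * N * m.U (s i) + 2 * N * √ε * m.Wc + 2 * Real.log 2 := by
        intro i
        have h2 : ∀ k ∈ Finset.univ, ∑ ζ ∈ mu N, m.w k * Real.log (‖s i - y k ζ‖ ^ 2 + ε) ≤
            2 * N * (m.w k * Real.log (max (m.ρ k) ‖s i - m.c k‖)) +
              2 * N * √ε * (m.w k / m.ρ k) + 2 * Real.log 2 * m.w k := by
          intro k _
          rw [← Finset.mul_sum]
          have h3 := mul_le_mul_of_nonneg_left
            (sum_log_le (s i) (m.c k) (v k) (hv k) (m.ρ_pos k) hε hN) (m.w_nonneg k)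
          refine h3.trans_eq ?_
          ring
        refine (Finset.sum_le_sum h2).trans_eq ?_
        rw [Finset.sum_add_distrib, Finset.sum_add_distrib, ← Finset.mul_sum, ← Finset.mul_sum,
          ← Finset.mul_sum, m.w_sum, mul_one]
        rfl
      refine (Finset.sum_le_sum fun i _ => h1 i).trans_eq ?_
      rw [Finset.sum_add_distrib, Finset.sum_add_distrib, ← Finset.mul_sum]
      simp only [Finset.sum_const, Finset.card_univ, Fintype.card_fin, nsmul_eq_mul]
      ring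
    have b3 : 2 * N * N * m.En - 2 * N * Real.log 2 ≤ T3 := by
      have h1 : ∀ k, ∀ ζ ∈ mu N, m.w k * (2 * N * m.U (y k ζ) - 2 * Real.log 2) ≤
          ∑ k', ∑ ζ' ∈ mu N, m.w k * (m.w k' * Real.log (‖y k ζ - y k' ζ'‖ ^ 2 + ε)) := by
        intro k ζ hζ
        simp_rw [← Finset.mul_sum]
        refine mul_le_mul_of_nonneg_left ?_ (m.w_nonneg k)
        have h2 : ∀ k' ∈ Finset.univ, 2 * N * (m.w k' * Real.log (max (m.ρ k') ‖y k ζ - m.c k'‖))
            - 2 * Real.log 2 * m.w k' ≤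
            m.w k' * ∑ ζ' ∈ mu N, Real.log (‖y k ζ - y k' ζ'‖ ^ 2 + ε) := by
          intro k' _
          have h3 := mul_le_mul_of_nonneg_left
            (le_sum_log (y k ζ) (m.c k') (v k') (hv k') (m.ρ_pos k') hε hN hR
              (hRs k k' _ (hyn k ζ hζ)) hNR) (m.w_nonneg k')
          refine le_trans (le_of_eq ?_) h3
          ring
        refine le_trans (le_of_eq ?_) (Finset.sum_le_sum h2)
        rw [Finset.sum_sub_distrib, ← Finset.mul_sum, ← Finset.mul_sum, m.w_sum, mul_one]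
        rfl
      refine le_trans ?_ (Finset.sum_le_sum fun k _ => Finset.sum_le_sum fun ζ hζ => h1 k ζ hζ)
      have h4 : ∀ k, m.w k * (2 * N * (N * circleAverage m.U (m.c k) (m.ρ k))
          - 2 * N * Real.log 2) ≤
          ∑ ζ ∈ mu N, m.w k * (2 * N * m.U (y k ζ) - 2 * Real.log 2) := by
        intro k
        rw [← Finset.mul_sum]
        refine mul_le_mul_of_nonneg_left ?_ (m.w_nonneg k)
        rw [Finset.sum_sub_distrib, ← Finset.mul_sum, Finset.sum_const, mu_card hN, nsmul_eq_mul]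
        have := mul_le_mul_of_nonneg_left (hvU k) (by positivity : (0 : ℝ) ≤ 2 * N)
        refine le_trans (sub_le_sub_right this _) (le_of_eq ?_)
        ring
      refine le_trans (le_of_eq ?_) (Finset.sum_le_sum fun k _ => h4 k)
      simp only [mul_sub, Finset.sum_sub_distrib]
      rw [← Finset.sum_mul, m.w_sum, one_mul]
      congr 1
      rw [CircMeas.En, Finset.mul_sum]
      refine Finset.sum_congr rfl fun k _ => ?_
      ring
    have hDN : 0 ≤ (D : ℝ) / N := by positivity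
    have c2 := mul_le_mul_of_nonneg_left b2 hDN
    have c3 := mul_le_mul_of_nonneg_left b3 (sq_nonneg ((D : ℝ) / N))
    have d2 : (D : ℝ) / N * (2 * N * ∑ i, m.U (s i) + 2 * N * √ε * D * m.Wc +
        2 * D * Real.log 2) = 2 * D * ∑ i, m.U (s i) + 2 * D * D * √ε * m.Wc +
        2 * D * D * Real.log 2 / N := by
      field_simp
    have d3 : ((D : ℝ) / N) ^ 2 * (2 * N * N * m.En - 2 * N * Real.log 2) =
        2 * D * D * m.En - 2 * D * D * Real.log 2 / N := by
      field_simp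
    rw [d2] at c2
    rw [d3] at c3
    have e6 : 6 * (D : ℝ) * D * Real.log 2 / N = 3 * (2 * D * D * Real.log 2 / N) := by ring
    rw [e6, hB]
    have hX' : X = ∑ x, ∑ a₁, Real.log (‖s x - s a₁‖ ^ 2 + ε) := hX
    rw [← hX'] at hc
    linarith
  -- limit in `N`
  have hlim : Tendsto (fun N : ℕ => B + 6 * D * D * Real.log 2 / (N : ℝ)) atTop (𝓝 (B + 0)) :=
    tendsto_const_nhds.add (tendsto_const_div_atTop_nhds_zero_nat _)
  rw [add_zero] at hlim
  refine ge_of_tendsto hlim ?_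
  have hq1 : 1 - √ε / R < 1 := by
    have : 0 < √ε / R := div_pos (Real.sqrt_pos.2 hε) hR
    linarith
  have hev : ∀ᶠ N : ℕ in atTop, (1 - √ε / R) ^ N ≤ 1 / 2 := by
    by_cases h0 : 0 ≤ 1 - √ε / R
    · have := tendsto_pow_atTop_nhds_zero_of_lt_one h0 hq1
      exact (this.eventually (gt_mem_nhds (by norm_num : (0:ℝ) < 1 / 2))).mono fun N h => h.le
    · exact absurd (sub_nonneg.2 ((div_le_one hR).2 hRε)) h0
  filter_upwards [eventually_gt_atTop 0, hev] with N hN hNR
  exact key N hN hNR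

/-- **Energy inequality**: the Vandermonde product of arbitrary points is bounded in terms of the
potential and the energy of a convex combination of circle measures. -/
theorem energy (m : CircMeas κ) {D : ℕ} (hD : 0 < D) (s : Fin D → ℂ) :
    ∏ i, ∏ j ∈ Finset.Ioi i, ‖s j - s i‖ ≤
      Real.exp (D * ∑ i, m.U (s i) - D ^ 2 * m.En / 2 + (D * m.Wc + D * Real.log D / 2)) := by
  by_cases h0 : ∏ i, ∏ j ∈ Finset.Ioi i, ‖s j - s i‖ = 0
  · rw [h0]; exact (Real.exp_pos _).le
  have hne : ∀ i, ∀ j ∈ Finset.Ioi i, ‖s j - s i‖ ≠ 0 := by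
    intro i j hj
    have h1 := Finset.prod_ne_zero_iff.1 h0 i (Finset.mem_univ i)
    exact Finset.prod_ne_zero_iff.1 h1 j hj
  have hpos : 0 < ∏ i, ∏ j ∈ Finset.Ioi i, ‖s j - s i‖ :=
    lt_of_le_of_ne (Finset.prod_nonneg fun i _ => Finset.prod_nonneg fun j _ => norm_nonneg _)
      (Ne.symm h0)
  rw [← Real.log_le_iff_le_exp hpos, Real.log_prod fun i _ =>
    Finset.prod_ne_zero_iff.2 fun j hj => hne i j hj]
  have h1 : ∑ i, Real.log (∏ j ∈ Finset.Ioi i, ‖s j - s i‖) =
      ∑ i, ∑ j ∈ Finset.Ioi i, Real.log ‖s j - s i‖ :=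
    Finset.sum_congr rfl fun i _ => Real.log_prod fun j hj => hne i j hj
  rw [h1]
  have hDr : (0 : ℝ) < D := Nat.cast_pos.2 hD
  have hε : (0 : ℝ) < 1 / (D : ℝ) ^ 2 := by positivity
  have hsq : √(1 / (D : ℝ) ^ 2) = 1 / D := by
    rw [Real.sqrt_div zero_le_one, Real.sqrt_one, Real.sqrt_sq hDr.le]
  have h2 := energy_aux m s hε
  rw [hsq] at h2
  have h3 := sum_sum_symm (fun i j => Real.log ‖s i - s j‖) (fun i j => by rw [norm_sub_rev])
    (fun i => by simp)
  have h4 : 2 * ∑ i, ∑ j, Real.log ‖s i - s j‖ + D * Real.log (1 / (D : ℝ) ^ 2) ≤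
      ∑ i, ∑ j, Real.log (‖s i - s j‖ ^ 2 + 1 / (D : ℝ) ^ 2) := by
    have h5 : ∀ i : Fin D, ∀ j : Fin D, 2 * Real.log ‖s i - s j‖ +
        (if i = j then Real.log (1 / (D : ℝ) ^ 2) else 0) ≤
        Real.log (‖s i - s j‖ ^ 2 + 1 / (D : ℝ) ^ 2) := by
      intro i j
      by_cases hij : i = j
      · subst hij; simp
      · have h6 : ‖s i - s j‖ ≠ 0 := by
          rcases lt_or_gt_of_ne hij with h | h
          · rw [norm_sub_rev]; exact hne i j (Finset.mem_Ioi.2 h)
          · exact hne j i (Finset.mem_Ioi.2 h)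
        rw [if_neg hij, add_zero]
        have h7 : 2 * Real.log ‖s i - s j‖ = Real.log (‖s i - s j‖ ^ 2) := by
          rw [Real.log_pow]; push_cast; ring
        rw [h7]
        exact Real.log_le_log (by positivity) (by linarith)
    have h8 := Finset.sum_le_sum fun i (_ : i ∈ Finset.univ) =>
      Finset.sum_le_sum fun j (_ : j ∈ Finset.univ) => h5 i j
    refine le_trans (le_of_eq ?_) h8
    simp only [Finset.sum_add_distrib, Finset.sum_ite_eq, Finset.mem_univ, if_true,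
      Finset.sum_const, Finset.card_univ, Fintype.card_fin, nsmul_eq_mul, Finset.mul_sum]
  have h9 : Real.log (1 / (D : ℝ) ^ 2) = -2 * Real.log D := by
    rw [Real.log_div one_ne_zero (by positivity), Real.log_one, Real.log_pow]
    push_cast; ring
  rw [h9] at h4
  have h10 : 4 * (D : ℝ) * D * (1 / D) * m.Wc = 4 * D * m.Wc := by
    field_simp
  rw [h10] at h2
  rw [h3] at h4
  nlinarith [h2, h4]

end Vale.Agent.P030.H54
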