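import Vale.Agent.P030.H3.EnergyN3
import Vale.Agent.P030.T.LadStep

/-!
# The energy hypothesis of one level of the ladder, from signed circle measures
-/

namespace Vale.Agent.P030.H54

open Finset Real Matrix
open Vale.Agent.P030.H3 Vale.Agent.P030.T.Lad

variable {κ : Type*} [Fintype κ]

/-- **the energy hypothesis of a ladder level**: `Wb = D U + γ` for a signed circle measure of
total mass one. -/
theorem lad_energy (m : SCirc κ) (γ : ℝ) (D N : ℕ) {η : ℝ} (hη : 0 < η) (hη2 : η ≤ 2) :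
    Energy D (fun z => D * m.U z + γ)
      (D * γ + (D : ℝ) ^ 2 * m.En / 2 - N * (D * m.Wc * η - Real.log (η / 2))) η N := by
  intro p hp a x hsep
  have h := energy_N3 m γ D N hη hη2 p hp a x hsep
  rw [← vd_eq, ← vd_eq] at h
  have hpos : ∀ j i, 0 < ‖x j - a i‖ := fun j i => lt_of_lt_of_le hη (hsep j i)
  have hP : 0 < ∏ j, ∏ i, ‖x j - a i‖ :=
    Finset.prod_pos fun j _ => Finset.prod_pos fun i _ => hpos j i
  have e1 : ∏ j, ∏ i, ‖x j - a i‖⁻¹ = (∏ j, ∏ i, ‖x j - a i‖)⁻¹ := by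
    simp only [Finset.prod_inv_distrib]
  rw [e1, ← div_eq_mul_inv, div_le_iff₀ hP]
  exact h

end Vale.Agent.P030.H54
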